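import Vale.Agent.P256.H387.Four

/-! From four variables to products of polynomials which depend on at most four linear forms. -/

set_option linter.all false

namespace Vale.Agent.P256.H76

open MvPolynomial Filter Topology Vale.Agent.P256 Vale.Agent.P256.H387

variable {n : ℕ} {p : MvPolynomial (Fin n) ℝ} {e : Fin n → ℝ}

/-- composition of a polynomial with a linear map -/
theorem exists_comp {m : ℕ} (q : MvPolynomial (Fin n) ℝ)
    (σ : (Fin m → ℝ) →ₗ[ℝ] (Fin n → ℝ)) :
    ∃ q' : MvPolynomial (Fin m) ℝ, (∀ y, eval y q' = eval (σ y) q) ∧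
      (∀ y : Fin m → ℂ, aeval y q' = aeval (fun i => ∑ j, (σ (Pi.single j 1) i : ℂ) * y j) q) ∧
      ∀ d, q.IsHomogeneous d → q'.IsHomogeneous d := by
  refine ⟨aeval (fun i => ∑ j, C (σ (Pi.single j 1) i) * X j) q, fun y => ?_, fun y => ?_,
    fun d hd => ?_⟩
  · rw [lr_eval_aeval]
    congr 2
    funext i
    have h2 : σ y = ∑ j, y j • σ (Pi.single j 1) := by
      conv_lhs => rw [show y = ∑ j, y j • (Pi.single j (1 : ℝ) : Fin m → ℝ) by
        ext i; simp [Finset.sum_apply, Pi.single_apply]]
      rw [map_sum]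
      exact Finset.sum_congr rfl fun i _ => map_smul σ _ _
    rw [h2]
    simp only [map_sum, map_mul, eval_C, eval_X, Finset.sum_apply, Pi.smul_apply, smul_eq_mul]
    exact Finset.sum_congr rfl fun i _ => mul_comm _ _
  · rw [← AlgHom.comp_apply ((aeval y : MvPolynomial (Fin m) ℝ →ₐ[ℝ] ℂ)), comp_aeval]
    congr 2
    funext i
    simp
  · have := hd.aeval (fun i : Fin n => (∑ j, C (σ (Pi.single j 1) i) * X j :
        MvPolynomial (Fin m) ℝ)) (n := 1) (fun i => by
      refine IsHomogeneous.sum _ _ _ fun j _ => ?_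
      have h1 := (isHomogeneous_C (Fin m) (σ (Pi.single j 1) i)).mul (isHomogeneous_X ℝ j)
      simpa using h1)
    simpa using this

/-- two complex line restrictions which agree at real points agree -/
theorem aeval_line_eq (q : MvPolynomial (Fin n) ℝ) {e e' x x' : Fin n → ℝ}
    (h : ∀ t : ℝ, eval (t • e - x) q = eval (t • e' - x') q) (t : ℂ) :
    aeval (fun i => t * (e i : ℂ) - (x i : ℂ)) q =
      aeval (fun i => t * (e' i : ℂ) - (x' i : ℂ)) q := by
  have key : ∀ (a b : Fin n → ℝ), ∃ P : Polynomial ℝ, (∀ t : ℝ, P.eval t = eval (t • a - b) q) ∧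
      ∀ t : ℂ, Polynomial.aeval t P = aeval (fun i => t * (a i : ℂ) - (b i : ℂ)) q := by
    intro a b
    refine ⟨aeval (fun i => Polynomial.X * Polynomial.C (a i) - Polynomial.C (b i)) q,
      fun t => ?_, fun t => ?_⟩
    · have h1 : Polynomial.eval t (aeval (fun i => Polynomial.X * Polynomial.C (a i) -
          Polynomial.C (b i)) q) = (Polynomial.aeval t) (aeval (fun i => Polynomial.X *
          Polynomial.C (a i) - Polynomial.C (b i)) q) := by
        rw [Polynomial.coe_aeval_eq_eval]
      rw [h1, ← AlgHom.comp_apply, comp_aeval, ← coe_aeval_eq_eval, RingHom.coe_coe]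
      congr 2
      funext i
      simp
      ring
    · rw [← AlgHom.comp_apply, comp_aeval]
      congr 2
      funext i
      simp
      ring
  obtain ⟨P, hP, hP'⟩ := key e x
  obtain ⟨Q, hQ, hQ'⟩ := key e' x'
  have : P = Q := Polynomial.funext fun t => by rw [hP, hQ, h]
  rw [← hP', ← hQ', this]

/-- a hyperbolic polynomial which depends only on `B x` comes from a hyperbolic polynomial -/
theorem descend {m : ℕ} {q : MvPolynomial (Fin n) ℝ} (hq : IsHyperbolic q e)
    (B : (Fin n → ℝ) →ₗ[ℝ] (Fin m → ℝ)) (hB : ∀ x y, B x = B y → eval x q = eval y q) :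
    ∃ q' : MvPolynomial (Fin m) ℝ, IsHyperbolic q' (B e) ∧ ∀ x, eval x q = eval (B x) q' := by
  obtain ⟨σ, hσ⟩ : ∃ σ : (Fin m → ℝ) →ₗ[ℝ] (Fin n → ℝ), ∀ x, B (σ (B x)) = B x := by
    obtain ⟨g, hg⟩ := B.rangeRestrict.exists_rightInverse_of_surjective B.range_rangeRestrict
    obtain ⟨π, hπ⟩ := (LinearMap.range B).subtype.exists_leftInverse_of_injective
      (LinearMap.range B).ker_subtype
    refine ⟨g.comp π, fun x => ?_⟩
    have h1 : π (B x) = B.rangeRestrict x := by
      have := LinearMap.congr_fun hπ (B.rangeRestrict x)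
      simpa using this
    have h2 := LinearMap.congr_fun hg (B.rangeRestrict x)
    simp only [LinearMap.comp_apply, LinearMap.id_apply] at h2 ⊢
    rw [h1]
    have h3 := congrArg Subtype.val h2
    simpa using h3
  obtain ⟨q', h1, h2, h3⟩ := exists_comp q σ
  have key : ∀ x, eval x q = eval (B x) q' := fun x => by
    rw [h1]
    exact hB _ _ (hσ x).symm
  refine ⟨q', ⟨?_, ?_, fun x t ht => ?_⟩, key⟩
  · obtain ⟨d, hd⟩ := hq.1
    exact ⟨d, h3 d hd⟩
  · rw [← key]
    exact hq.2.1
  · rw [h2] at ht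
    have h4 : (fun i => ∑ j, (σ (Pi.single j 1) i : ℂ) * (t * (B e j : ℂ) - (x j : ℂ))) =
        fun i => t * ((σ (B e)) i : ℂ) - (σ x i : ℂ) := by
      funext i
      have h5 : ∀ y : Fin m → ℝ, σ y i = ∑ j, σ (Pi.single j 1) i * y j := by
        intro y
        have h6 : σ y = ∑ j, y j • σ (Pi.single j 1) := by
          conv_lhs => rw [show y = ∑ j, y j • (Pi.single j (1 : ℝ) : Fin m → ℝ) by
            ext i; simp [Finset.sum_apply, Pi.single_apply]]
          rw [map_sum]
          exact Finset.sum_congr rfl fun i _ => map_smul σ _ _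
        rw [h6, Finset.sum_apply]
        exact Finset.sum_congr rfl fun j _ => by simp [mul_comm]
      rw [h5, h5]
      push_cast
      rw [Finset.mul_sum, ← Finset.sum_sub_distrib]
      exact Finset.sum_congr rfl fun j _ => by ring
    rw [h4] at ht
    refine hq.2.2 (σ x) t ?_
    rw [aeval_line_eq q (e' := σ (B e)) (x' := σ x) fun s => hB _ _ ?_]
    · exact ht
    · rw [map_sub, map_sub, map_smul, map_smul, hσ]

/-- **Top.** If the hyperbolicity cones in `ℝ⁴` are shadows, then so are all hyperbolicity cones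
of polynomials all of whose irreducible factors depend on at most four linear forms. -/
theorem top (H4 : ∀ (q : MvPolynomial (Fin 4) ℝ) (e : Fin 4 → ℝ), IsHyperbolic q e →
      IsSpectrahedralShadow (hypCone q e)) (hp : IsHyperbolic p e)
    (h : ∀ q r : MvPolynomial (Fin n) ℝ, p = q * r → Irreducible q →
      ∃ B : (Fin n → ℝ) →ₗ[ℝ] (Fin 4 → ℝ), ∀ x y, B x = B y → eval x q = eval y q) :
    IsSpectrahedralShadow (hypCone p e) := by
  refine (shad_of_irreducible hp fun q r hqr hirr hq => ?_).shadow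
  obtain ⟨B, hB⟩ := h q r hqr hirr
  obtain ⟨q', hq', hk⟩ := descend hq B hB
  rw [hypCone_comp B hk]
  exact (GShad.of_shadow (H4 q' (B e) hq')).preimage B

/-- at most four variables -/
theorem top_le_four (H4 : ∀ (q : MvPolynomial (Fin 4) ℝ) (e : Fin 4 → ℝ), IsHyperbolic q e →
      IsSpectrahedralShadow (hypCone q e)) (hn : n ≤ 4) (hp : IsHyperbolic p e) :
    IsSpectrahedralShadow (hypCone p e) := by
  refine top H4 hp fun q r _ _ => ?_
  refine ⟨LinearMap.pi fun j : Fin 4 => if h : (j : ℕ) < n then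
    LinearMap.proj (⟨j, h⟩ : Fin n) else 0, fun x y hxy => ?_⟩
  have : x = y := by
    funext i
    have h1 := congrFun hxy ⟨(i : ℕ), by omega⟩
    simpa using h1
  rw [this]

end Vale.Agent.P256.H76
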